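import Mathlib

/-! P028, row DIV: gcd sums. -/

namespace Vale.Agent.P028

/-- `∑_{q ≤ r} gcd(q,r) ≤ r τ(r)` -/
theorem gcd_sum_le (r : ℕ) (hr : 0 < r) :
    ∑ q ∈ Finset.Icc 1 r, Nat.gcd q r ≤ r * r.divisors.card := by
  have h1 : ∀ q ∈ Finset.Icc 1 r, Nat.gcd q r ≤
      ∑ d ∈ r.divisors, if d ∣ q then d else 0 := by
    intro q _
    have hd : Nat.gcd q r ∈ r.divisors := Nat.mem_divisors.2 ⟨Nat.gcd_dvd_right q r, hr.ne'⟩
    have h2 := Finset.single_le_sum (f := fun d => if d ∣ q then d else 0)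
      (fun d _ => Nat.zero_le _) hd
    simpa [Nat.gcd_dvd_left] using h2
  refine (Finset.sum_le_sum h1).trans ?_
  rw [Finset.sum_comm]
  have h3 : ∀ d ∈ r.divisors, (∑ q ∈ Finset.Icc 1 r, if d ∣ q then d else 0) = r := by
    intro d hd
    obtain ⟨h4, -⟩ := Nat.mem_divisors.1 hd
    rw [← Finset.sum_filter, Finset.sum_const, smul_eq_mul]
    have h5 : (Finset.Icc 1 r).filter (fun q => d ∣ q) = (Finset.Ioc 0 r).filter (fun q => d ∣ q) :=
      rfl
    rw [h5, Nat.Ioc_filter_dvd_card_eq_div, Nat.div_mul_cancel h4]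
  rw [Finset.sum_congr rfl h3, Finset.sum_const, smul_eq_mul, mul_comm]

end Vale.Agent.P028
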