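import Vale.Agent.P028.Overlap

/-! P028: row SECOND, the global second moment. -/

namespace Vale.Agent.P028

open MeasureTheory

theorem sec_ind_nonneg (γ β : ℝ) (q : ℕ) (x : ℝ) : 0 ≤ ind γ β q x := by
  unfold ind
  exact Set.indicator_nonneg (fun _ _ => zero_le_one) x

theorem sec_ind_le_one (γ β : ℝ) (q : ℕ) (x : ℝ) : ind γ β q x ≤ 1 := by
  unfold ind
  exact Set.indicator_le_self' (fun _ _ => zero_le_one) x

theorem sec_ind_zero (γ : ℝ) (q : ℕ) (x : ℝ) : ind γ 0 q x = 0 := by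
  unfold ind
  apply Set.indicator_of_notMem
  rintro ⟨a, ha⟩
  exact absurd ha (not_lt.mpr (abs_nonneg _))

theorem sec_measurable_ind (γ β : ℝ) (q : ℕ) : Measurable (ind γ β q) :=
  measurable_one.indicator (measurableSet_Eq' γ β q)

/-- products of two indicator functions are integrable on every interval -/
theorem sec_intervalIntegrable_ind_mul (γ β β' : ℝ) (q r : ℕ) (s t : ℝ) :
    IntervalIntegrable (fun x => ind γ β q x * ind γ β' r x) volume s t := by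
  rw [intervalIntegrable_iff]
  apply Measure.integrableOn_of_bounded (M := 1)
  · exact (measure_Ioc_lt_top).ne
  · exact ((sec_measurable_ind γ β q).mul (sec_measurable_ind γ β' r)).aestronglyMeasurable
  · refine Filter.Eventually.of_forall (fun x => ?_)
    rw [Real.norm_eq_abs, abs_of_nonneg (mul_nonneg (sec_ind_nonneg _ _ _ _) (sec_ind_nonneg _ _ _ _))]
    exact mul_le_one₀ (sec_ind_le_one _ _ _ _) (sec_ind_nonneg _ _ _ _) (sec_ind_le_one _ _ _ _)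

/-- the bound for one pair -/
theorem sec_pair_bound (γ : ℝ) (ψ : ℕ → ℝ) (h0 : ∀ q, 0 ≤ ψ q) (h1 : ∀ q, ψ q ≤ 1 / 2)
    (q r : ℕ) (hq : 0 < q) (hr : 0 < r) :
    ∫ x in (0 : ℝ)..1, ind γ (ψ q) q x * ind γ (ψ r) r x ≤
      4 * (ψ q * ψ r) + (if q ≤ r ∧ 0 < ψ q then 2 * ψ r / r * Nat.gcd q r else 0)
        + (if r ≤ q ∧ 0 < ψ r then 2 * ψ q / q * Nat.gcd r q else 0) := by
  have n1 : 0 ≤ (if q ≤ r ∧ 0 < ψ q then 2 * ψ r / r * (Nat.gcd q r : ℝ) else 0) := by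
    split_ifs
    · have := h0 r
      positivity
    · exact le_rfl
  have n2 : 0 ≤ (if r ≤ q ∧ 0 < ψ r then 2 * ψ q / q * (Nat.gcd r q : ℝ) else 0) := by
    split_ifs
    · have := h0 q
      positivity
    · exact le_rfl
  have n3 : 0 ≤ ψ q * ψ r := mul_nonneg (h0 q) (h0 r)
  rcases (h0 q).eq_or_lt with hq0 | hq0
  · have hz : ∀ x, ind γ (ψ q) q x * ind γ (ψ r) r x = 0 := by
      intro x
      rw [← hq0, sec_ind_zero, zero_mul]
    simp only [hz, intervalIntegral.integral_zero]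
    linarith
  rcases (h0 r).eq_or_lt with hr0 | hr0
  · have hz : ∀ x, ind γ (ψ q) q x * ind γ (ψ r) r x = 0 := by
      intro x
      rw [← hr0, sec_ind_zero, mul_zero]
    simp only [hz, intervalIntegral.integral_zero]
    linarith
  rcases le_total q r with hqr | hqr
  · have h := overlap γ (ψ q) (ψ r) (h0 q) (h0 r) (h1 r) q r hq hr
    rw [if_pos ⟨hqr, hq0⟩]
    have e : 2 * ψ r * (2 * ψ q + Nat.gcd q r / r)
        = 4 * (ψ q * ψ r) + 2 * ψ r / r * Nat.gcd q r := by ring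
    rw [e] at h
    linarith
  · have h := overlap γ (ψ r) (ψ q) (h0 r) (h0 q) (h1 q) r q hr hq
    rw [if_pos (⟨hqr, hr0⟩ : r ≤ q ∧ 0 < ψ r)]
    have e : 2 * ψ q * (2 * ψ r + Nat.gcd r q / q)
        = 4 * (ψ q * ψ r) + 2 * ψ q / q * Nat.gcd r q := by ring
    rw [e] at h
    have hc : ∀ x, ind γ (ψ q) q x * ind γ (ψ r) r x = ind γ (ψ r) r x * ind γ (ψ q) q x :=
      fun x => mul_comm _ _
    simp only [hc]
    linarith

/-- the bound for one row -/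
theorem sec_row_bound (ψ : ℕ → ℝ) (h0 : ∀ q, 0 ≤ ψ q) (C : ℝ)
    (hS : ∀ r : ℕ, 0 < r → 0 < ψ r →
      ∑ q ∈ (Finset.Icc 1 r).filter (fun q => 0 < ψ q), (Nat.gcd q r : ℝ) ≤ C * r)
    (S : Finset ℕ) (hS0 : ∀ q ∈ S, 0 < q) (r : ℕ) (hr : 0 < r) :
    ∑ q ∈ S, (if q ≤ r ∧ 0 < ψ q then 2 * ψ r / r * (Nat.gcd q r : ℝ) else 0) ≤
      2 * C * ψ r := by
  have hrR : (0 : ℝ) < r := by exact_mod_cast hr
  rcases (h0 r).eq_or_lt with hr0 | hr0
  · rw [← hr0]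
    simp
  · rw [← Finset.sum_filter, ← Finset.mul_sum]
    have h2 : ∑ q ∈ S.filter (fun q => q ≤ r ∧ 0 < ψ q), (Nat.gcd q r : ℝ)
        ≤ ∑ q ∈ (Finset.Icc 1 r).filter (fun q => 0 < ψ q), (Nat.gcd q r : ℝ) := by
      apply Finset.sum_le_sum_of_subset_of_nonneg
      · intro q hq
        rw [Finset.mem_filter] at hq
        rw [Finset.mem_filter, Finset.mem_Icc]
        exact ⟨⟨hS0 q hq.1, hq.2.1⟩, hq.2.2⟩
      · intro q _ _
        exact Nat.cast_nonneg _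
    have h3 := h2.trans (hS r hr hr0)
    calc 2 * ψ r / r * ∑ q ∈ S.filter (fun q => q ≤ r ∧ 0 < ψ q), (Nat.gcd q r : ℝ)
        ≤ 2 * ψ r / r * (C * r) := mul_le_mul_of_nonneg_left h3 (by positivity)
      _ = 2 * C * ψ r := by field_simp

theorem second (γ : ℝ) (ψ : ℕ → ℝ) (h0 : ∀ q, 0 ≤ ψ q) (h1 : ∀ q, ψ q ≤ 1 / 2) (C : ℝ)
    (hC : 0 ≤ C)
    (hS : ∀ r : ℕ, 0 < r → 0 < ψ r →
      ∑ q ∈ (Finset.Icc 1 r).filter (fun q => 0 < ψ q), (Nat.gcd q r : ℝ) ≤ C * r)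
    (S : Finset ℕ) (hS0 : ∀ q ∈ S, 0 < q) :
    ∫ x in (0 : ℝ)..1, (∑ q ∈ S, ind γ (ψ q) q x) ^ 2 ≤
      4 * (∑ q ∈ S, ψ q) ^ 2 + 4 * C * ∑ q ∈ S, ψ q := by
  have _h := hC
  have e : ∀ x, (∑ q ∈ S, ind γ (ψ q) q x) ^ 2
      = ∑ q ∈ S, ∑ r ∈ S, ind γ (ψ q) q x * ind γ (ψ r) r x := by
    intro x
    rw [sq, Finset.sum_mul_sum]
  simp only [e]
  rw [intervalIntegral.integral_finsetSum]
  swap
  · intro q _
    have h := IntervalIntegrable.sum (μ := volume) (a := 0) (b := 1) S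
      (f := fun r x => ind γ (ψ q) q x * ind γ (ψ r) r x)
      (fun r _ => sec_intervalIntegrable_ind_mul γ (ψ q) (ψ r) q r 0 1)
    have e3 : (fun x => ∑ r ∈ S, ind γ (ψ q) q x * ind γ (ψ r) r x)
        = ∑ r ∈ S, fun x => ind γ (ψ q) q x * ind γ (ψ r) r x := by
      funext x
      rw [Finset.sum_apply]
    rw [e3]
    exact h
  have e2 : ∀ q ∈ S, ∫ x in (0 : ℝ)..1, ∑ r ∈ S, ind γ (ψ q) q x * ind γ (ψ r) r x
      = ∑ r ∈ S, ∫ x in (0 : ℝ)..1, ind γ (ψ q) q x * ind γ (ψ r) r x := by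
    intro q _
    rw [intervalIntegral.integral_finsetSum]
    intro r _
    exact sec_intervalIntegrable_ind_mul γ (ψ q) (ψ r) q r 0 1
  rw [Finset.sum_congr rfl e2]
  calc ∑ q ∈ S, ∑ r ∈ S, ∫ x in (0 : ℝ)..1, ind γ (ψ q) q x * ind γ (ψ r) r x
      ≤ ∑ q ∈ S, ∑ r ∈ S, (4 * (ψ q * ψ r)
          + (if q ≤ r ∧ 0 < ψ q then 2 * ψ r / r * (Nat.gcd q r : ℝ) else 0)
          + (if r ≤ q ∧ 0 < ψ r then 2 * ψ q / q * (Nat.gcd r q : ℝ) else 0)) := by
        apply Finset.sum_le_sum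
        intro q hq
        apply Finset.sum_le_sum
        intro r hr
        exact sec_pair_bound γ ψ h0 h1 q r (hS0 q hq) (hS0 r hr)
    _ = 4 * (∑ q ∈ S, ψ q) ^ 2
          + ∑ r ∈ S, ∑ q ∈ S,
            (if q ≤ r ∧ 0 < ψ q then 2 * ψ r / r * (Nat.gcd q r : ℝ) else 0)
          + ∑ q ∈ S, ∑ r ∈ S,
            (if r ≤ q ∧ 0 < ψ r then 2 * ψ q / q * (Nat.gcd r q : ℝ) else 0) := by
        simp only [Finset.sum_add_distrib]
        congr 1
        congr 1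
        · rw [sq, Finset.sum_mul_sum, Finset.mul_sum]
          apply Finset.sum_congr rfl
          intro q _
          rw [Finset.mul_sum]
        · rw [Finset.sum_comm]
    _ ≤ 4 * (∑ q ∈ S, ψ q) ^ 2 + ∑ r ∈ S, 2 * C * ψ r + ∑ q ∈ S, 2 * C * ψ q := by
        gcongr with r hr q hq
        · exact sec_row_bound ψ h0 C hS S hS0 r (hS0 r hr)
        · exact sec_row_bound ψ h0 C hS S hS0 q (hS0 q hq)
    _ = 4 * (∑ q ∈ S, ψ q) ^ 2 + 4 * C * ∑ q ∈ S, ψ q := by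
        rw [← Finset.mul_sum]
        ring

end Vale.Agent.P028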