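import Vale.Agent.P028.Final
import Vale.Agent.P028.Second
import Vale.Agent.P028.Div

/-! P028: assembly. -/

namespace Vale.Agent.P028

open MeasureTheory

theorem Eq_mono {γ β β' : ℝ} (h : β ≤ β') (q : ℕ) : Eq' γ β q ⊆ Eq' γ β' q := by
  rintro x ⟨a, ha⟩
  exact ⟨a, lt_of_lt_of_le ha h⟩

theorem asm_ind_nonneg (γ β : ℝ) (q : ℕ) (x : ℝ) : 0 ≤ ind γ β q x := by
  unfold ind
  by_cases h : x ∈ Eq' γ β q <;> simp [h]

theorem asm_ind_le_one (γ β : ℝ) (q : ℕ) (x : ℝ) : ind γ β q x ≤ 1 := by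
  unfold ind
  by_cases h : x ∈ Eq' γ β q <;> simp [h]

theorem asm_measurable_ind (γ β : ℝ) (q : ℕ) : Measurable (ind γ β q) :=
  measurable_one.indicator (measurableSet_Eq' γ β q)

/-- the set is invariant under integer translations -/
theorem Eq_add_int (γ β : ℝ) (q : ℕ) (x : ℝ) (m : ℤ) (h : x ∈ Eq' γ β q) :
    x + m ∈ Eq' γ β q := by
  obtain ⟨a, ha⟩ := h
  refine ⟨a + q * m, ?_⟩
  push_cast
  rw [show (q : ℝ) * (x + m) - (a + q * m) - γ = q * x - a - γ by ring]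
  exact ha

/-- not summable nonnegative: tails have finite windows of arbitrarily large mass -/
theorem exists_window (ψ : ℕ → ℝ) (h0 : ∀ q, 0 ≤ ψ q) (hd : ¬ Summable ψ) (Q : ℕ) (c : ℝ) :
    ∃ N, Q ≤ N ∧ c ≤ ∑ q ∈ Finset.Ico Q N, ψ q := by
  by_contra hcon
  push Not at hcon
  apply hd
  rw [← summable_nat_add_iff Q]
  apply summable_of_sum_range_le (c := c) (fun n => h0 _)
  intro n
  have := hcon (Q + n) (by omega)
  rw [Finset.sum_Ico_eq_sum_range] at this
  rw [show Q + n - Q = n by omega] at this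
  have e : ∀ i ∈ Finset.range n, ψ (i + Q) = ψ (Q + i) := fun i _ => by rw [add_comm]
  rw [Finset.sum_congr rfl e]
  exact this.le

theorem null_aux (γ : ℝ) (ψ : ℕ → ℝ) (h0 : ∀ q, 0 ≤ ψ q) (h1 : ∀ q, ψ q ≤ 1 / 2) (C : ℝ)
    (hC : 0 ≤ C)
    (hS : ∀ r : ℕ, 0 < r → 0 < ψ r →
      ∑ q ∈ (Finset.Icc 1 r).filter (fun q => 0 < ψ q), (Nat.gcd q r : ℝ)
        ≤ C * r * (1 + ∑ q ∈ Finset.Icc 1 r, ψ q))
    (hd : ¬ Summable ψ) (Q : ℕ) :
    volume ({x : ℝ | ∀ q, Q ≤ q → 0 < q → x ∉ Eq' γ (ψ q) q} ∩ Set.Ico 0 1) = 0 := by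
  choose N hNQ hN using fun k : ℕ => exists_window ψ h0 hd (max Q (k + 1))
    (1 + ∑ q ∈ Finset.range (max Q (k + 1)), ψ q)
  set S : ℕ → Finset ℕ := fun k => Finset.Ico (max Q (k + 1)) (N k) with hSdef
  set T : ℕ → ℝ := fun k => ∑ q ∈ S k, ψ q with hT
  have hA0 : ∀ k : ℕ, 0 ≤ ∑ q ∈ Finset.range (max Q (k + 1)), ψ q :=
    fun k => Finset.sum_nonneg fun q _ => h0 q
  have hT1 : ∀ k, 1 ≤ T k := fun k => by
    have := hN k
    have := hA0 k
    change 1 ≤ ∑ q ∈ Finset.Ico (max Q (k + 1)) (N k), ψ q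
    linarith
  have hTN : ∀ k, 1 + ∑ q ∈ Finset.range (N k), ψ q ≤ 2 * T k := by
    intro k
    have e := Finset.sum_range_add_sum_Ico ψ (hNQ k)
    have := hN k
    change 1 + ∑ q ∈ Finset.range (N k), ψ q ≤ 2 * ∑ q ∈ Finset.Ico (max Q (k + 1)) (N k), ψ q
    linarith
  have hSmem : ∀ k, ∀ q ∈ S k, Q ≤ q ∧ k + 1 ≤ q ∧ q < N k := by
    intro k q hq
    rw [hSdef] at hq
    simp only [Finset.mem_Ico] at hq
    exact ⟨le_trans (le_max_left _ _) hq.1, le_trans (le_max_right _ _) hq.1, hq.2⟩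
  have hmeas : MeasurableSet {x : ℝ | ∀ q, Q ≤ q → 0 < q → x ∉ Eq' γ (ψ q) q} := by
    have : {x : ℝ | ∀ q, Q ≤ q → 0 < q → x ∉ Eq' γ (ψ q) q}
        = ⋂ q : ℕ, ⋂ (_ : Q ≤ q), ⋂ (_ : 0 < q), (Eq' γ (ψ q) q)ᶜ := by
      ext x; simp
    rw [this]
    exact MeasurableSet.iInter fun q => MeasurableSet.iInter fun _ => MeasurableSet.iInter fun _ =>
      (measurableSet_Eq' γ (ψ q) q).compl
  apply final _ (hmeas.inter measurableSet_Ico) Set.inter_subset_right (4 + 8 * C)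
    (fun k x => ∑ q ∈ S k, ind γ (ψ q) q x) T
  · intro k; linarith [hT1 k]
  · intro k x; exact Finset.sum_nonneg fun q _ => asm_ind_nonneg _ _ _ _
  · intro k; exact Finset.measurable_sum _ fun q _ => asm_measurable_ind _ _ _
  · intro k
    refine ⟨(S k).card, fun x => ?_⟩
    calc ∑ q ∈ S k, ind γ (ψ q) q x ≤ ∑ q ∈ S k, (1 : ℝ) :=
          Finset.sum_le_sum fun q _ => asm_ind_le_one _ _ _ _
      _ = (S k).card := by simp
  · intro k x hx
    apply Finset.sum_eq_zero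
    intro q hq
    have hq' := hSmem k q hq
    have := hx.1 q hq'.1 (by omega)
    unfold ind
    exact Set.indicator_of_notMem this _
  · intro k
    -- truncate the support at `N k`
    have hk := hT1 k
    set φ : ℕ → ℝ := fun q => if q < N k then ψ q else 0 with hφ
    have hφ0 : ∀ q, 0 ≤ φ q := fun q => by
      by_cases h : q < N k <;> simp [hφ, h, h0]
    have hφ1 : ∀ q, φ q ≤ 1 / 2 := fun q => by
      by_cases h : q < N k
      · simp [hφ, h]; simpa using h1 q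
      · simp [hφ, h]
    have hφeq : ∀ q ∈ S k, φ q = ψ q := fun q hq => by
      simp [hφ, (hSmem k q hq).2.2]
    have hS2 : ∀ r : ℕ, 0 < r → 0 < φ r →
        ∑ q ∈ (Finset.Icc 1 r).filter (fun q => 0 < φ q), (Nat.gcd q r : ℝ)
          ≤ (C * (2 * T k)) * r := by
      intro r hr hr'
      have hrN : r < N k := by
        by_contra h
        simp [hφ, h] at hr'
      have hrψ : 0 < ψ r := by simpa [hφ, hrN] using hr'
      have e1 : (Finset.Icc 1 r).filter (fun q => 0 < φ q)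
          = (Finset.Icc 1 r).filter (fun q => 0 < ψ q) := by
        apply Finset.filter_congr
        intro q hq
        rw [Finset.mem_Icc] at hq
        have : q < N k := by omega
        simp [hφ, this]
      rw [e1]
      refine (hS r hr hrψ).trans ?_
      have e2 : 1 + ∑ q ∈ Finset.Icc 1 r, ψ q ≤ 2 * T k := by
        refine le_trans ?_ (hTN k)
        have : ∑ q ∈ Finset.Icc 1 r, ψ q ≤ ∑ q ∈ Finset.range (N k), ψ q := by
          apply Finset.sum_le_sum_of_subset_of_nonneg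
          · intro x hx
            rw [Finset.mem_Icc] at hx
            rw [Finset.mem_range]
            omega
          · intro x _ _; exact h0 x
        linarith
      calc C * r * (1 + ∑ q ∈ Finset.Icc 1 r, ψ q) ≤ C * r * (2 * T k) := by
            apply mul_le_mul_of_nonneg_left e2
            positivity
        _ = (C * (2 * T k)) * r := by ring
    have := second γ φ hφ0 hφ1 (C * (2 * T k)) (by positivity) hS2 (S k)
      (fun q hq => by have := (hSmem k q hq).2.1; omega)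
    have e3 : ∀ x, ∑ q ∈ S k, ind γ (φ q) q x = ∑ q ∈ S k, ind γ (ψ q) q x := fun x =>
      Finset.sum_congr rfl fun q hq => by rw [hφeq q hq]
    have e4 : ∑ q ∈ S k, φ q = T k := Finset.sum_congr rfl hφeq
    simp only [e3, e4] at this
    refine this.trans (le_of_eq ?_)
    ring
  · intro k s t hst
    rw [intervalIntegral.integral_finsetSum]
    · calc 2 * T k * (t - s) - 2 * T k / (k + 1)
          = ∑ q ∈ S k, (2 * ψ q * (t - s) - 2 * ψ q / (k + 1)) := by
            rw [Finset.sum_sub_distrib, ← Finset.sum_mul, ← Finset.mul_sum, ← Finset.sum_div,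
              ← Finset.mul_sum]
        _ ≤ ∑ q ∈ S k, ∫ x in s..t, ind γ (ψ q) q x := by
            apply Finset.sum_le_sum
            intro q hq
            have hq2 := (hSmem k q hq).2.1
            have h3 := integral_ind_ge γ (ψ q) (h0 q) (h1 q) q (by omega) s t hst
            refine le_trans ?_ h3
            have h4 : 2 * ψ q / q ≤ 2 * ψ q / (k + 1) := by
              have hkq : ((k : ℝ) + 1) ≤ q := by exact_mod_cast hq2
              have := h0 q
              gcongr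
            linarith
    · intro q _
      exact bdd_int _ (asm_measurable_ind _ _ _) 1 (fun x => by
        rw [abs_of_nonneg (asm_ind_nonneg _ _ _ _)]; exact asm_ind_le_one _ _ _ _) s t

theorem main (γ : ℝ) (ψ : ℕ → ℝ) (h0 : ∀ q, 0 ≤ ψ q) (C : ℝ)
    (hS : ∀ r : ℕ, 0 < r → 0 < ψ r →
      ∑ q ∈ (Finset.Icc 1 r).filter (fun q => 0 < ψ q), (Nat.gcd q r : ℝ)
        ≤ C * r * (1 + ∑ q ∈ Finset.Icc 1 r, min (ψ q) 1))
    (hd : ¬ Summable ψ) : volume (W γ ψ)ᶜ = 0 := by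
  -- truncation
  set ψ' : ℕ → ℝ := fun q => min (ψ q) (1 / 2) with hψ'
  have h0' : ∀ q, 0 ≤ ψ' q := fun q => le_min (h0 q) (by norm_num)
  have h1' : ∀ q, ψ' q ≤ 1 / 2 := fun q => min_le_right _ _
  have hpos : ∀ q, 0 < ψ' q ↔ 0 < ψ q := by
    intro q
    simp only [hψ', lt_min_iff]
    constructor
    · exact fun h => h.1
    · exact fun h => ⟨h, by norm_num⟩
  set C' : ℝ := 2 * max C 0 with hC'
  have hmin : ∀ q, min (ψ q) 1 ≤ 2 * ψ' q := by
    intro q
    simp only [hψ']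
    rcases le_total (ψ q) (1 / 2) with h | h
    · rw [min_eq_left h]
      exact (min_le_left _ _).trans (by linarith [h0 q])
    · rw [min_eq_right h]
      exact (min_le_right _ _).trans (by norm_num)
  have hS' : ∀ r : ℕ, 0 < r → 0 < ψ' r →
      ∑ q ∈ (Finset.Icc 1 r).filter (fun q => 0 < ψ' q), (Nat.gcd q r : ℝ)
        ≤ C' * r * (1 + ∑ q ∈ Finset.Icc 1 r, ψ' q) := by
    intro r hr hr'
    simp only [hpos] at hr' ⊢
    refine (hS r hr hr').trans ?_
    have e0 : 0 ≤ ∑ q ∈ Finset.Icc 1 r, min (ψ q) 1 :=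
      Finset.sum_nonneg fun q _ => le_min (h0 q) zero_le_one
    have e1 : ∑ q ∈ Finset.Icc 1 r, min (ψ q) 1 ≤ 2 * ∑ q ∈ Finset.Icc 1 r, ψ' q := by
      rw [Finset.mul_sum]
      exact Finset.sum_le_sum fun q _ => hmin q
    have e2 : 1 + ∑ q ∈ Finset.Icc 1 r, min (ψ q) 1 ≤ 2 * (1 + ∑ q ∈ Finset.Icc 1 r, ψ' q) := by
      linarith
    have hr0 : (0 : ℝ) ≤ r := Nat.cast_nonneg r
    calc C * r * (1 + ∑ q ∈ Finset.Icc 1 r, min (ψ q) 1)
        ≤ max C 0 * r * (1 + ∑ q ∈ Finset.Icc 1 r, min (ψ q) 1) := by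
          apply mul_le_mul_of_nonneg_right _ (by linarith)
          exact mul_le_mul_of_nonneg_right (le_max_left _ _) hr0
      _ ≤ max C 0 * r * (2 * (1 + ∑ q ∈ Finset.Icc 1 r, ψ' q)) := by
          apply mul_le_mul_of_nonneg_left e2
          exact mul_nonneg (le_max_right _ _) hr0
      _ = C' * r * (1 + ∑ q ∈ Finset.Icc 1 r, ψ' q) := by rw [hC']; ring
  have hd' : ¬ Summable ψ' := by
    intro hsum
    apply hd
    have hev : ∀ᶠ q in Filter.atTop, ψ' q < 1 / 2 :=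
      (hsum.tendsto_atTop_zero).eventually (gt_mem_nhds (by norm_num))
    obtain ⟨Q, hQ⟩ := Filter.eventually_atTop.mp hev
    rw [← summable_nat_add_iff Q] at hsum ⊢
    convert hsum using 1
    ext q
    have h5 := hQ (q + Q) (by omega)
    simp only [hψ'] at h5 ⊢
    rw [min_lt_iff] at h5
    rcases h5 with h5 | h5
    · exact (min_eq_left h5.le).symm
    · exact absurd h5 (lt_irrefl _)
  have hsub : (W γ ψ)ᶜ ⊆ ⋃ m : ℤ, ⋃ Q : ℕ, (fun x => x + (m : ℝ)) ''
      ({x : ℝ | ∀ q, Q ≤ q → 0 < q → x ∉ Eq' γ (ψ' q) q} ∩ Set.Ico 0 1) := by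
    intro x hx
    have hfin : {q : ℕ | 0 < q ∧ ∃ a : ℤ, |q * x - a - γ| < ψ q}.Finite := by
      by_contra h
      exact hx h
    obtain ⟨Q, hQ⟩ := hfin.bddAbove
    simp only [Set.mem_iUnion]
    refine ⟨⌊x⌋, Q + 1, Int.fract x, ⟨?_, ⟨Int.fract_nonneg x, Int.fract_lt_one x⟩⟩, ?_⟩
    · intro q hq hq0 hmem
      have h6 : x ∈ Eq' γ (ψ' q) q := by
        have := Eq_add_int γ (ψ' q) q (Int.fract x) ⌊x⌋ hmem
        rwa [Int.fract_add_floor] at this
      have h7 : x ∈ Eq' γ (ψ q) q := Eq_mono (min_le_left _ _) q h6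
      have h8 := hQ ⟨hq0, h7⟩
      omega
    · exact Int.fract_add_floor x
  apply measure_mono_null hsub
  rw [measure_iUnion_null_iff]
  intro m
  rw [measure_iUnion_null_iff]
  intro Q
  rw [Set.image_add_right]
  rw [measure_preimage_add_right]
  exact null_aux γ ψ' h0' h1' C' (by positivity) hS' hd' Q

/-- the divisor version -/
theorem main_div (γ : ℝ) (ψ : ℕ → ℝ) (h0 : ∀ q, 0 ≤ ψ q) (C : ℝ)
    (hS : ∀ r : ℕ, 0 < r → 0 < ψ r →
      (r.divisors.card : ℝ) ≤ C * (1 + ∑ q ∈ Finset.Icc 1 r, min (ψ q) 1))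
    (hd : ¬ Summable ψ) : volume (W γ ψ)ᶜ = 0 := by
  apply main γ ψ h0 C _ hd
  intro r hr hr'
  have h1 : ∑ q ∈ (Finset.Icc 1 r).filter (fun q => 0 < ψ q), (Nat.gcd q r : ℝ)
      ≤ ∑ q ∈ Finset.Icc 1 r, (Nat.gcd q r : ℝ) :=
    Finset.sum_le_sum_of_subset_of_nonneg (Finset.filter_subset _ _)
      (fun _ _ _ => Nat.cast_nonneg _)
  have h2 : ∑ q ∈ Finset.Icc 1 r, (Nat.gcd q r : ℝ) ≤ r * r.divisors.card := by
    exact_mod_cast gcd_sum_le r hr
  have h3 := hS r hr hr'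
  calc _ ≤ (r : ℝ) * r.divisors.card := h1.trans h2
    _ ≤ r * (C * (1 + ∑ q ∈ Finset.Icc 1 r, min (ψ q) 1)) := by gcongr
    _ = C * r * (1 + ∑ q ∈ Finset.Icc 1 r, min (ψ q) 1) := by ring

end Vale.Agent.P028
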