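import Vale.Agent.P028.Model

/-! P028, row BASIC: the sets `Eq'` are measurable, mean value of the indicator over a period,
lower bound of its integral over an interval. -/

namespace Vale.Agent.P028

open MeasureTheory

theorem measurableSet_Eq' (γ β : ℝ) (q : ℕ) : MeasurableSet (Eq' γ β q) := by
  have h : Eq' γ β q = ⋃ a : ℤ, {x : ℝ | |q * x - a - γ| < β} := by
    ext x
    simp [Eq']
  rw [h]
  refine MeasurableSet.iUnion fun a => ?_
  exact (isOpen_lt (by fun_prop) continuous_const).measurableSet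

theorem ind_nonneg (γ β : ℝ) (q : ℕ) (x : ℝ) : 0 ≤ ind γ β q x :=
  Set.indicator_nonneg (fun _ _ => zero_le_one) x

theorem ind_le_one (γ β : ℝ) (q : ℕ) (x : ℝ) : ind γ β q x ≤ 1 := by
  unfold ind
  by_cases h : x ∈ Eq' γ β q
  · rw [Set.indicator_of_mem h]; exact le_rfl
  · rw [Set.indicator_of_notMem h]; exact zero_le_one

theorem measurable_ind (γ β : ℝ) (q : ℕ) : Measurable (ind γ β q) :=
  measurable_one.indicator (measurableSet_Eq' γ β q)

theorem ind_eq (γ β : ℝ) (q : ℕ) (x : ℝ) [Decidable (x ∈ Eq' γ β q)] :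
    ind γ β q x = if x ∈ Eq' γ β q then 1 else 0 := by
  unfold ind
  by_cases h : x ∈ Eq' γ β q
  · rw [Set.indicator_of_mem h, if_pos h]; rfl
  · rw [Set.indicator_of_notMem h, if_neg h]

theorem ind_congr {γ β γ' β' : ℝ} {q q' : ℕ} {x y : ℝ}
    (h : x ∈ Eq' γ β q ↔ y ∈ Eq' γ' β' q') : ind γ β q x = ind γ' β' q' y := by
  classical
  rw [ind_eq, ind_eq]
  simp only [h]

theorem ind_add_div (γ β : ℝ) (q : ℕ) (hq : 0 < q) (x : ℝ) (j : ℤ) :
    ind γ β q (x + j / q) = ind γ β q x := by
  have hq' : (q : ℝ) ≠ 0 := by exact_mod_cast hq.ne'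
  apply ind_congr
  constructor
  · rintro ⟨a, ha⟩
    refine ⟨a - j, ?_⟩
    have e : (q : ℝ) * (x + j / q) = q * x + j := by field_simp
    rw [e] at ha
    push_cast
    convert ha using 2
    ring
  · rintro ⟨a, ha⟩
    refine ⟨a + j, ?_⟩
    have e : (q : ℝ) * (x + j / q) = q * x + j := by field_simp
    rw [e]
    push_cast
    convert ha using 2
    ring

theorem ind_periodic (γ β : ℝ) (q : ℕ) (hq : 0 < q) :
    Function.Periodic (ind γ β q) (1 / (q : ℝ)) := by
  intro x
  have := ind_add_div γ β q hq x 1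
  simpa using this

theorem ind_periodic_one (γ β : ℝ) (q : ℕ) : Function.Periodic (ind γ β q) 1 := by
  intro x
  apply ind_congr
  constructor
  · rintro ⟨a, ha⟩
    refine ⟨a - q, ?_⟩
    push_cast
    convert ha using 2
    ring
  · rintro ⟨a, ha⟩
    refine ⟨a + q, ?_⟩
    push_cast
    convert ha using 2
    ring

theorem bounded_intervalIntegrable {f : ℝ → ℝ} (hm : Measurable f) {b : ℝ}
    (hb : ∀ x, |f x| ≤ b) (s t : ℝ) : IntervalIntegrable f volume s t := by
  have h1 : IntervalIntegrable (fun _ : ℝ => b) volume s t := intervalIntegrable_const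
  refine h1.mono_fun hm.aestronglyMeasurable ?_
  filter_upwards with x
  rw [Real.norm_eq_abs, Real.norm_eq_abs]
  exact (hb x).trans (le_abs_self b)

theorem ind_intervalIntegrable (γ β : ℝ) (q : ℕ) (s t : ℝ) :
    IntervalIntegrable (ind γ β q) volume s t := by
  refine bounded_intervalIntegrable (measurable_ind γ β q) (b := 1) (fun x => ?_) s t
  rw [abs_of_nonneg (ind_nonneg γ β q x)]
  exact ind_le_one γ β q x

/-- the integral over one short period -/
theorem integral_short (γ β : ℝ) (h0 : 0 ≤ β) (h1 : β ≤ 1 / 2) (q : ℕ) (hq : 0 < q) (s : ℝ) :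
    ∫ x in s..(s + 1 / (q : ℝ)), ind γ β q x = 2 * β / q := by
  have hq' : (0 : ℝ) < q := by exact_mod_cast hq
  set c : ℝ := (γ - 1 / 2) / q with hc
  rw [(ind_periodic γ β q hq).intervalIntegral_add_eq s c]
  have hce : c + 1 / (q : ℝ) = (γ + 1 / 2) / q := by
    rw [hc]; field_simp; ring
  rw [hce]
  have hcle : c ≤ (γ + 1 / 2) / q := by
    rw [← hce]
    have : (0 : ℝ) ≤ 1 / q := by positivity
    linarith
  have h2 : ∫ x in c..((γ + 1 / 2) / q), ind γ β q x =
      ∫ x in c..((γ + 1 / 2) / q), (Set.Ioo ((γ - β) / q) ((γ + β) / q)).indicator (fun _ => (1 : ℝ)) x := by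
    apply intervalIntegral.integral_congr
    intro x hx
    rw [Set.uIcc_of_le hcle] at hx
    obtain ⟨hx1, hx2⟩ := hx
    rw [hc, div_le_iff₀ hq'] at hx1
    rw [le_div_iff₀ hq'] at hx2
    have hiff : x ∈ Eq' γ β q ↔ x ∈ Set.Ioo ((γ - β) / q) ((γ + β) / q) := by
      rw [Set.mem_Ioo, div_lt_iff₀ hq', lt_div_iff₀ hq']
      constructor
      · rintro ⟨a, ha⟩
        rw [abs_lt] at ha
        have ha0 : a = 0 := by
          have h3 : (a : ℝ) < 1 := by nlinarith [ha.1, ha.2]
          have h4 : (-1 : ℝ) < a := by nlinarith [ha.1, ha.2]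
          have h5 : a < 1 := by exact_mod_cast h3
          have h6 : -1 < a := by exact_mod_cast h4
          omega
        subst ha0
        push_cast at ha
        constructor
        · nlinarith [ha.1, ha.2]
        · nlinarith [ha.1, ha.2]
      · rintro ⟨h3, h4⟩
        refine ⟨0, ?_⟩
        rw [abs_lt]
        push_cast
        constructor
        · nlinarith
        · nlinarith
    show ind γ β q x = _
    unfold ind
    by_cases hx' : x ∈ Eq' γ β q
    · rw [Set.indicator_of_mem hx', Set.indicator_of_mem (hiff.1 hx')]; rfl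
    · rw [Set.indicator_of_notMem hx', Set.indicator_of_notMem (fun h => hx' (hiff.2 h))]
  rw [h2, intervalIntegral.integral_of_le hcle, integral_indicator measurableSet_Ioo,
    setIntegral_const, measureReal_restrict_apply' measurableSet_Ioc]
  have h3 : Set.Ioo ((γ - β) / q) ((γ + β) / q) ∩ Set.Ioc c ((γ + 1 / 2) / q) =
      Set.Ioo ((γ - β) / (q : ℝ)) ((γ + β) / q) := by
    apply Set.inter_eq_left.2
    intro x hx
    have e1 : c ≤ (γ - β) / q := by
      rw [hc]; gcongr
    have e2 : (γ + β) / q ≤ (γ + 1 / 2) / q := by gcongr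
    exact ⟨lt_of_le_of_lt e1 hx.1, hx.2.le.trans e2⟩
  rw [h3, Real.volume_real_Ioo_of_le (by gcongr; linarith)]
  simp only [smul_eq_mul, mul_one]
  ring

theorem integral_short_mul (γ β : ℝ) (h0 : 0 ≤ β) (h1 : β ≤ 1 / 2) (q : ℕ) (hq : 0 < q) (s : ℝ)
    (n : ℕ) : ∫ x in s..(s + n * (1 / (q : ℝ))), ind γ β q x = n * (2 * β / q) := by
  have h := (ind_periodic γ β q hq).intervalIntegral_add_zsmul_eq (n : ℤ) s
    (fun a b => ind_intervalIntegrable γ β q a b)
  rw [integral_short γ β h0 h1 q hq s] at h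
  simpa [zsmul_eq_mul] using h

/-- mean over a period, for `β ≤ 1/2` -/
theorem integral_ind (γ β : ℝ) (h0 : 0 ≤ β) (h1 : β ≤ 1 / 2) (q : ℕ) (hq : 0 < q) :
    ∫ x in (0 : ℝ)..1, ind γ β q x = 2 * β := by
  have hq' : (0 : ℝ) < q := by exact_mod_cast hq
  have h := integral_short_mul γ β h0 h1 q hq 0 q
  have e : (0 : ℝ) + q * (1 / q) = 1 := by field_simp; ring
  rw [e] at h
  rw [h]
  field_simp

/-- lower bound on intervals -/
theorem integral_ind_ge (γ β : ℝ) (h0 : 0 ≤ β) (h1 : β ≤ 1 / 2) (q : ℕ) (hq : 0 < q) (s t : ℝ)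
    (hst : s ≤ t) : 2 * β * (t - s) - 2 * β / q ≤ ∫ x in s..t, ind γ β q x := by
  have hq' : (0 : ℝ) < q := by exact_mod_cast hq
  set n : ℕ := ⌊(t - s) * q⌋₊ with hn
  have hpos : 0 ≤ (t - s) * q := mul_nonneg (by linarith) hq'.le
  have hn1 : (n : ℝ) ≤ (t - s) * q := Nat.floor_le hpos
  have hn2 : (t - s) * q < n + 1 := Nat.lt_floor_add_one _
  have hle : s + n * (1 / (q : ℝ)) ≤ t := by
    have : n * (1 / (q : ℝ)) ≤ t - s := by
      rw [mul_one_div, div_le_iff₀ hq']
      exact hn1
    linarith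
  have h2 := intervalIntegral.integral_add_adjacent_intervals
    (ind_intervalIntegrable γ β q s (s + n * (1 / (q : ℝ))))
    (ind_intervalIntegrable γ β q (s + n * (1 / (q : ℝ))) t)
  have h3 : 0 ≤ ∫ x in (s + n * (1 / (q : ℝ)))..t, ind γ β q x :=
    intervalIntegral.integral_nonneg hle (fun x _ => ind_nonneg γ β q x)
  rw [← h2, integral_short_mul γ β h0 h1 q hq s n]
  have h4 : 2 * β * (t - s) - 2 * β / q ≤ n * (2 * β / q) := by
    have e : 2 * β * (t - s) - 2 * β / q = ((t - s) * q - 1) * (2 * β / q) := by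
      field_simp
    rw [e]
    apply mul_le_mul_of_nonneg_right
    · linarith
    · positivity
  linarith

end Vale.Agent.P028
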