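import Vale.Agent.P028.Model

/-! P028: row COUNT, the number of the points `q (x + j / r)` close to `γ` modulo one. -/

namespace Vale.Agent.P028

open MeasureTheory

/-- number of integers strictly between two reals -/
theorem card_Ioo_floor_ceil (u L : ℝ) (hL : 0 ≤ L) :
    ((Finset.Ioo ⌊u⌋ ⌈u + L⌉).card : ℝ) ≤ L + 1 := by
  rw [Int.card_Ioo]
  have h1 : (⌈u + L⌉ : ℝ) < u + L + 1 := Int.ceil_lt_add_one _
  have h2 : u - 1 < (⌊u⌋ : ℝ) := Int.sub_one_lt_floor u
  rcases le_or_gt 0 (⌈u + L⌉ - ⌊u⌋ - 1) with h | h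
  · have h3 : (((⌈u + L⌉ - ⌊u⌋ - 1).toNat : ℤ) : ℝ) = ((⌈u + L⌉ - ⌊u⌋ - 1 : ℤ) : ℝ) := by
      rw [Int.toNat_of_nonneg h]
    rw [Int.cast_natCast] at h3
    rw [h3]
    push_cast
    linarith
  · rw [Int.toNat_of_nonpos h.le]
    simp only [Nat.cast_zero]
    linarith

/-- at most `2 β r + gcd(q,r)` of the points `q (x + j / r)`, `j < r`, are within `β` of `γ`
modulo one. -/
theorem count (γ β x : ℝ) (hβ : 0 ≤ β) (q r : ℕ) (hq : 0 < q) (hr : 0 < r) :
    ∑ j ∈ Finset.range r, ind γ β q (x + j / r) ≤ 2 * β * r + Nat.gcd q r := by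
  classical
  set g := Nat.gcd q r with hg
  have hg0 : 0 < g := Nat.gcd_pos_of_pos_left r hq
  obtain ⟨q', hq'⟩ : g ∣ q := Nat.gcd_dvd_left q r
  obtain ⟨r', hr'⟩ : g ∣ r := Nat.gcd_dvd_right q r
  have hr'0 : 0 < r' := by
    rcases Nat.eq_zero_or_pos r' with h | h
    · rw [h] at hr'; omega
    · exact h
  have hcop : Nat.Coprime q' r' := by
    have h1 : Nat.gcd (g * q') (g * r') = g := by rw [← hq', ← hr']
    rw [Nat.gcd_mul_left] at h1
    have h2 : Nat.gcd q' r' = 1 := by
      have := Nat.eq_of_mul_eq_mul_left hg0 (h1.trans (mul_one g).symm)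
      exact this
    exact h2
  have hrR : (0 : ℝ) < r := by exact_mod_cast hr
  have hr'R : (0 : ℝ) < r' := by exact_mod_cast hr'0
  have hgR : (0 : ℝ) < g := by exact_mod_cast hg0
  set J := (Finset.range r).filter (fun j : ℕ => x + j / r ∈ Eq' γ β q) with hJ
  have hsum : ∑ j ∈ Finset.range r, ind γ β q (x + j / r) = (J.card : ℝ) := by
    rw [hJ, Finset.card_filter]
    push_cast
    apply Finset.sum_congr rfl
    intro j _
    by_cases h : x + (j : ℝ) / r ∈ Eq' γ β q
    · simp [ind, h]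
    · simp [ind, h]
  have hex : ∀ j ∈ J, ∃ a : ℤ, |q * (x + (j : ℝ) / r) - a - γ| < β := by
    intro j hj
    exact (Finset.mem_filter.mp hj).2
  choose! a ha using hex
  set u : ℝ := -(r' * (q * x - γ)) - β * r' with hu
  have hcard : J.card ≤ (Finset.Ioo ⌊u⌋ ⌈u + 2 * β * r'⌉ ×ˢ Finset.range g).card := by
    apply Finset.card_le_card_of_injOn
      (fun j : ℕ => ((q' : ℤ) * j - a j * r', j / r'))
    · intro j hj
      have hj' : j ∈ J := hj
      have hjr : j < r := Finset.mem_range.mp (Finset.mem_filter.mp hj').1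
      have h1 := ha j hj'
      have h2 : ((((q' : ℤ) * j - a j * r' : ℤ)) : ℝ) + r' * (q * x - γ)
          = r' * (q * (x + (j : ℝ) / r) - a j - γ) := by
        have hqR : (q : ℝ) = g * q' := by exact_mod_cast hq'
        have hrR' : (r : ℝ) = g * r' := by exact_mod_cast hr'
        push_cast
        rw [hqR, hrR']
        field_simp
        ring
      have h3 : |((((q' : ℤ) * j - a j * r' : ℤ)) : ℝ) + r' * (q * x - γ)| < β * r' := by
        rw [h2, abs_mul, abs_of_pos hr'R, mul_comm]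
        exact mul_lt_mul_of_pos_right h1 hr'R
      rw [abs_lt] at h3
      simp only [Finset.coe_product, Set.mem_prod, Finset.mem_coe, Finset.mem_Ioo,
        Finset.mem_range]
      refine ⟨⟨?_, ?_⟩, ?_⟩
      · rw [Int.floor_lt]
        linarith [h3.1]
      · rw [Int.lt_ceil]
        linarith [h3.2]
      · rw [Nat.div_lt_iff_lt_mul hr'0]
        rw [← hr']
        exact hjr
    · intro j hj k hk hjk
      have e1 : (q' : ℤ) * j - a j * r' = (q' : ℤ) * k - a k * r' := congrArg Prod.fst hjk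
      have e2 : j / r' = k / r' := congrArg Prod.snd hjk
      have h1 : (r' : ℤ) ∣ (q' : ℤ) * ((j : ℤ) - k) := by
        refine ⟨a j - a k, ?_⟩
        linear_combination e1
      have h2 : (r' : ℤ) ∣ ((j : ℤ) - k) := by
        apply Int.dvd_of_dvd_mul_right_of_gcd_one h1
        rw [Int.gcd_natCast_natCast]
        rw [Nat.gcd_comm]
        exact hcop
      have h3 : j % r' = k % r' := by
        have h4 : (k : ℤ) ≡ j [ZMOD r'] := (Int.modEq_iff_dvd).mpr h2
        have h5 : k ≡ j [MOD r'] := by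
          exact (Int.natCast_modEq_iff).mp h4
        exact h5.symm
      calc j = r' * (j / r') + j % r' := (Nat.div_add_mod j r').symm
        _ = r' * (k / r') + k % r' := by rw [e2, h3]
        _ = k := Nat.div_add_mod k r'
  rw [Finset.card_product, Finset.card_range] at hcard
  have hI := card_Ioo_floor_ceil u (2 * β * r') (by positivity)
  rw [hsum]
  calc (J.card : ℝ) ≤ ((Finset.Ioo ⌊u⌋ ⌈u + 2 * β * r'⌉).card * g : ℕ) := by exact_mod_cast hcard
    _ = ((Finset.Ioo ⌊u⌋ ⌈u + 2 * β * r'⌉).card : ℝ) * g := by push_cast; ring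
    _ ≤ (2 * β * r' + 1) * g := mul_le_mul_of_nonneg_right hI hgR.le
    _ = 2 * β * r + g := by
        have hrR' : (r : ℝ) = g * r' := by exact_mod_cast hr'
        rw [hrR']; ring

end Vale.Agent.P028
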