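import Vale.Agent.P028.Model

/-! P028: the weak limit argument. -/

namespace Vale.Agent.P028

open MeasureTheory

theorem bdd_int (f : ℝ → ℝ) (hf : Measurable f) (b : ℝ) (hb : ∀ x, |f x| ≤ b) (s t : ℝ) :
    IntervalIntegrable f volume s t := by
  rw [intervalIntegrable_iff]
  apply Measure.integrableOn_of_bounded (M := b)
  · rw [Set.uIoc]
    exact measure_Ioc_lt_top.ne
  · exact hf.aestronglyMeasurable
  · exact Filter.Eventually.of_forall fun x => by rw [Real.norm_eq_abs]; exact hb x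

theorem final (B : Set ℝ) (hB : MeasurableSet B) (hB1 : B ⊆ Set.Ico 0 1) (C0 : ℝ)
    (F : ℕ → ℝ → ℝ) (T : ℕ → ℝ) (hT : ∀ k, 0 < T k)
    (hF0 : ∀ k x, 0 ≤ F k x) (hFm : ∀ k, Measurable (F k)) (hFb : ∀ k, ∃ b, ∀ x, F k x ≤ b)
    (hFB : ∀ k, ∀ x ∈ B, F k x = 0)
    (h2 : ∀ k, ∫ x in (0 : ℝ)..1, F k x ^ 2 ≤ C0 * T k ^ 2)
    (hI : ∀ k (s t : ℝ), s ≤ t →
      2 * T k * (t - s) - 2 * T k / (k + 1) ≤ ∫ x in s..t, F k x) :
    volume B = 0 := by
  by_contra hne
  have hBfin : volume B ≠ ⊤ := by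
    have : volume B ≤ volume (Set.Ico (0 : ℝ) 1) := measure_mono hB1
    rw [Real.volume_Ico] at this
    exact ne_top_of_le_ne_top ENNReal.ofReal_ne_top this
  set β : ℝ := (volume B).toReal with hβ
  have hβ0 : 0 < β := ENNReal.toReal_pos hne hBfin
  set C1 : ℝ := |C0| + 1 with hC1
  have hC1pos : 0 < C1 := by positivity
  have hC01 : C0 ≤ C1 := by rw [hC1]; linarith [le_abs_self C0]
  set lam : ℝ := β / (2 * C1) with hlam
  have hlam0 : 0 < lam := by positivity
  set η : ℝ := lam * β / 2 with hη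
  have hη0 : 0 < η := by positivity
  -- compact set
  have hlt : ENNReal.ofReal (β / 2) < volume B := by
    rw [← ENNReal.ofReal_toReal hBfin, ← hβ]
    exact (ENNReal.ofReal_lt_ofReal_iff hβ0).mpr (by linarith)
  obtain ⟨K, hKB, hK, hKlt⟩ := hB.exists_lt_isCompact_of_ne_top hBfin hlt
  have hKfin : volume K ≠ ⊤ := ne_top_of_le_ne_top hBfin (measure_mono hKB)
  obtain ⟨U, hKU, hUo, hUlt⟩ := K.exists_isOpen_lt_add hKfin
    (ε := ENNReal.ofReal η) (by simpa using hη0)
  obtain ⟨δ, hδ, hδU⟩ := hK.exists_thickening_subset_open hUo hKU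
  obtain ⟨n, hn⟩ := exists_nat_gt (1 / δ)
  have hn0 : 0 < (n : ℝ) := lt_trans (by positivity) hn
  have hn0' : 0 < n := by exact_mod_cast hn0
  have hnδ : 1 / (n : ℝ) < δ := by
    rw [div_lt_iff₀ hn0]
    rw [div_lt_iff₀ hδ] at hn
    linarith
  classical
  let cell : ℕ → Set ℝ := fun i => Set.Icc ((i : ℝ) / n) (((i : ℕ) + 1 : ℝ) / n)
  let I : Finset ℕ := (Finset.range n).filter fun i => (cell i ∩ K).Nonempty
  have hcellU : ∀ i ∈ I, ∀ x ∈ cell i, x ∈ U := by
    intro i hi x hx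
    obtain ⟨z, hz1, hz2⟩ := (Finset.mem_filter.mp hi).2
    apply hδU
    rw [Metric.mem_thickening_iff]
    refine ⟨z, hz2, ?_⟩
    rw [Real.dist_eq]
    have h1 : |x - z| ≤ 1 / n := by
      have e : ((i : ℝ) + 1) / n = i / n + 1 / n := by ring
      simp only [cell, Set.mem_Icc] at hx hz1
      rw [e] at hx hz1
      rw [abs_le]
      constructor <;> linarith [hx.1, hx.2, hz1.1, hz1.2]
    linarith
  have hKcov : K ⊆ ⋃ i ∈ I, cell i := by
    intro x hx
    have hx1 := hB1 (hKB hx)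
    have hnx : 0 ≤ (n : ℝ) * x := mul_nonneg hn0.le hx1.1
    have hfl := Nat.floor_le hnx
    have hfl2 := Nat.lt_floor_add_one ((n : ℝ) * x)
    have hin : ⌊(n : ℝ) * x⌋₊ < n := by
      rw [Nat.floor_lt hnx]
      nlinarith [hx1.2]
    have hxc : x ∈ cell ⌊(n : ℝ) * x⌋₊ := by
      simp only [cell, Set.mem_Icc]
      constructor
      · rw [div_le_iff₀ hn0]; linarith
      · rw [le_div_iff₀ hn0]; linarith
    simp only [Set.mem_iUnion]
    exact ⟨_, Finset.mem_filter.mpr ⟨Finset.mem_range.mpr hin, ⟨x, hxc, hx⟩⟩, hxc⟩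
  have hm : β / 2 ≤ (I.card : ℝ) / n := by
    have h1 : volume K ≤ ∑ i ∈ I, volume (cell i) :=
      (measure_mono hKcov).trans (measure_biUnion_finset_le _ _)
    have h2' : ∀ i ∈ I, volume (cell i) = ENNReal.ofReal (1 / n) := by
      intro i _
      simp only [cell]
      rw [Real.volume_Icc]
      congr 1
      ring
    rw [Finset.sum_congr rfl h2', Finset.sum_const, nsmul_eq_mul,
      ← ENNReal.ofReal_natCast, ← ENNReal.ofReal_mul (by positivity)] at h1
    have h3 := hKlt.le.trans h1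
    rw [ENNReal.ofReal_le_ofReal_iff (by positivity)] at h3
    calc β / 2 ≤ (I.card : ℝ) * (1 / n) := h3
      _ = (I.card : ℝ) / n := by ring
  -- the bad part
  set D : Set ℝ := U \ K with hD
  have hDm : MeasurableSet D := hUo.measurableSet.diff hK.measurableSet
  have hDvol : volume D ≤ ENNReal.ofReal η := by
    rw [hD, measure_sdiff hKU hK.measurableSet.nullMeasurableSet hKfin]
    rw [tsub_le_iff_left]
    exact hUlt.le
  have hDfin : volume D ≠ ⊤ := ne_top_of_le_ne_top ENNReal.ofReal_ne_top hDvol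
  obtain ⟨k, hk⟩ := exists_nat_gt (4 * n / β)
  have hTk := hT k
  obtain ⟨b, hb⟩ := hFb k
  set G : ℝ → ℝ := fun x => (lam / (2 * T k)) * F k x ^ 2 + (T k / (2 * lam)) * D.indicator 1 x
    with hG
  have hb0 : 0 ≤ b := (hF0 k 0).trans (hb 0)
  have hF2b : ∀ x, |F k x ^ 2| ≤ b ^ 2 := by
    intro x
    rw [abs_of_nonneg (by positivity)]
    exact pow_le_pow_left₀ (hF0 k x) (hb x) 2
  have hindm : Measurable (D.indicator (1 : ℝ → ℝ)) := measurable_one.indicator hDm
  have hindb : ∀ x, |D.indicator (1 : ℝ → ℝ) x| ≤ 1 := by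
    intro x
    by_cases hx : x ∈ D <;> simp [hx]
  have hind0 : ∀ x, 0 ≤ D.indicator (1 : ℝ → ℝ) x := by
    intro x
    by_cases hx : x ∈ D <;> simp [hx]
  have hiF : ∀ s t, IntervalIntegrable (F k) volume s t :=
    bdd_int _ (hFm k) b (fun x => by rw [abs_of_nonneg (hF0 k x)]; exact hb x)
  have hiF2 : ∀ s t, IntervalIntegrable (fun x => F k x ^ 2) volume s t :=
    bdd_int _ ((hFm k).pow_const 2) (b ^ 2) hF2b
  have hiD : ∀ s t, IntervalIntegrable (D.indicator (1 : ℝ → ℝ)) volume s t :=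
    bdd_int _ hindm 1 hindb
  have hiG : ∀ s t, IntervalIntegrable G volume s t := fun s t =>
    ((hiF2 s t).const_mul _).add ((hiD s t).const_mul _)
  have hG0 : ∀ x, 0 ≤ G x := by
    intro x
    have := hind0 x
    simp only [hG]
    positivity
  have hle : ∀ i ∈ I, ∫ x in ((i : ℝ) / n)..(((i : ℕ) + 1 : ℝ) / n), F k x
      ≤ ∫ x in ((i : ℝ) / n)..(((i : ℕ) + 1 : ℝ) / n), G x := by
    intro i hi
    have hii : (i : ℝ) / n ≤ ((i : ℕ) + 1 : ℝ) / n := by gcongr; linarith
    apply intervalIntegral.integral_mono_on hii (hiF _ _) (hiG _ _)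
    intro x hx
    have hxU := hcellU i hi x hx
    by_cases hxK : x ∈ K
    · rw [hFB k x (hKB hxK)]
      exact hG0 x
    · have hxD : x ∈ D := ⟨hxU, hxK⟩
      simp only [hG, Set.indicator_of_mem hxD, Pi.one_apply, mul_one]
      have hsq : 0 ≤ (lam * F k x - T k) ^ 2 := sq_nonneg _
      have e : lam / (2 * T k) * F k x ^ 2 + T k / (2 * lam) - F k x
          = (lam * F k x - T k) ^ 2 / (2 * lam * T k) := by
        field_simp
        ring
      have : 0 ≤ (lam * F k x - T k) ^ 2 / (2 * lam * T k) := by positivity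
      linarith
  have hsumG : ∑ i ∈ I, ∫ x in ((i : ℝ) / n)..(((i : ℕ) + 1 : ℝ) / n), G x
      ≤ ∫ x in (0 : ℝ)..1, G x := by
    have h1 : ∑ i ∈ Finset.range n, ∫ x in ((i : ℝ) / n)..(((i : ℕ) + 1 : ℝ) / n), G x
        = ∫ x in (0 : ℝ)..1, G x := by
      have := intervalIntegral.sum_integral_adjacent_intervals (f := G) (μ := volume)
        (a := fun i : ℕ => (i : ℝ) / n) (n := n) (fun i _ => hiG _ _)
      simp only [Nat.cast_add, Nat.cast_one, Nat.cast_zero, zero_div,
        div_self hn0.ne'] at this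
      exact this
    rw [← h1]
    apply Finset.sum_le_sum_of_subset_of_nonneg (Finset.filter_subset _ _)
    intro i _ _
    apply intervalIntegral.integral_nonneg
    · gcongr; linarith
    · intro x _; exact hG0 x
  have hintG : ∫ x in (0 : ℝ)..1, G x ≤ T k * (β / 2) := by
    have h1 : ∫ x in (0 : ℝ)..1, G x = (lam / (2 * T k)) * (∫ x in (0 : ℝ)..1, F k x ^ 2)
        + (T k / (2 * lam)) * (∫ x in (0 : ℝ)..1, D.indicator (1 : ℝ → ℝ) x) := by
      simp only [hG]
      rw [intervalIntegral.integral_add ((hiF2 0 1).const_mul _) ((hiD 0 1).const_mul _),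
        intervalIntegral.integral_const_mul, intervalIntegral.integral_const_mul]
    have h3 : ∫ x in (0 : ℝ)..1, D.indicator (1 : ℝ → ℝ) x ≤ η := by
      rw [intervalIntegral.integral_of_le zero_le_one]
      have h4 : ∫ x in Set.Ioc (0 : ℝ) 1, D.indicator (1 : ℝ → ℝ) x
          = (volume.restrict (Set.Ioc (0 : ℝ) 1)).real D := by
        rw [integral_indicator_one hDm]
      rw [h4]
      have h5 : (volume.restrict (Set.Ioc (0 : ℝ) 1)) D ≤ ENNReal.ofReal η :=
        (Measure.restrict_apply_le _ _).trans hDvol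
      exact ENNReal.toReal_le_of_le_ofReal hη0.le h5
    rw [h1]
    have h6 := h2 k
    have h7 : (lam / (2 * T k)) * (∫ x in (0 : ℝ)..1, F k x ^ 2)
        ≤ (lam / (2 * T k)) * (C1 * T k ^ 2) := by
      apply mul_le_mul_of_nonneg_left _ (by positivity)
      exact h6.trans (mul_le_mul_of_nonneg_right hC01 (by positivity))
    have h8 : (T k / (2 * lam)) * (∫ x in (0 : ℝ)..1, D.indicator (1 : ℝ → ℝ) x)
        ≤ (T k / (2 * lam)) * η := mul_le_mul_of_nonneg_left h3 (by positivity)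
    have e1 : (lam / (2 * T k)) * (C1 * T k ^ 2) = T k * (β / 4) := by
      rw [hlam]; field_simp; ring
    have e2 : (T k / (2 * lam)) * η = T k * (β / 4) := by
      rw [hη]; field_simp; ring
    rw [e1] at h7
    rw [e2] at h8
    linarith
  have hlow : (I.card : ℝ) * (2 * T k * (1 / n) - 2 * T k / (k + 1))
      ≤ ∑ i ∈ I, ∫ x in ((i : ℝ) / n)..(((i : ℕ) + 1 : ℝ) / n), F k x := by
    rw [← nsmul_eq_mul, ← Finset.sum_const]
    apply Finset.sum_le_sum
    intro i _
    have hii : (i : ℝ) / n ≤ ((i : ℕ) + 1 : ℝ) / n := by gcongr; linarith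
    have := hI k _ _ hii
    have e : ((i : ℝ) + 1) / n - i / n = 1 / n := by ring
    rw [e] at this
    exact this
  have hall : (I.card : ℝ) * (2 * T k * (1 / n) - 2 * T k / (k + 1)) ≤ T k * (β / 2) :=
    hlow.trans ((Finset.sum_le_sum hle).trans (hsumG.trans hintG))
  have hcard : (I.card : ℝ) ≤ n := by
    have : I.card ≤ n := by
      calc I.card ≤ (Finset.range n).card := Finset.card_filter_le _ _
        _ = n := Finset.card_range n
    exact_mod_cast this
  have hk1 : (0 : ℝ) < k + 1 := by positivity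
  have h9 : (I.card : ℝ) * (2 * T k / (k + 1)) ≤ T k * (2 * n / (k + 1)) := by
    calc (I.card : ℝ) * (2 * T k / (k + 1)) ≤ n * (2 * T k / (k + 1)) := by gcongr
      _ = T k * (2 * n / (k + 1)) := by ring
  have h10 : T k * β ≤ (I.card : ℝ) * (2 * T k * (1 / n)) := by
    calc T k * β = 2 * T k * (β / 2) := by ring
      _ ≤ 2 * T k * ((I.card : ℝ) / n) := by gcongr
      _ = (I.card : ℝ) * (2 * T k * (1 / n)) := by ring
  have h11 : T k * β - T k * (2 * n / (k + 1)) ≤ T k * (β / 2) := by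
    have : (I.card : ℝ) * (2 * T k * (1 / n) - 2 * T k / (k + 1))
        = (I.card : ℝ) * (2 * T k * (1 / n)) - (I.card : ℝ) * (2 * T k / (k + 1)) := by ring
    linarith
  have h12 : β / 2 ≤ 2 * n / (k + 1) := by
    have : T k * (β / 2) ≤ T k * (2 * n / (k + 1)) := by linarith
    exact le_of_mul_le_mul_left this hTk
  rw [div_lt_iff₀ hβ0] at hk
  rw [le_div_iff₀ hk1] at h12
  nlinarith

end Vale.Agent.P028
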