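import Mathlib

/-! P028: weak inhomogeneous Duffin-Schaeffer, supports with bounded gcd sums. -/

namespace Vale.Agent.P028

open MeasureTheory

/-- `‖q x - γ‖ < ψ(q)` for infinitely many positive integers `q`. -/
def W (γ : ℝ) (ψ : ℕ → ℝ) : Set ℝ :=
  {x | {q : ℕ | 0 < q ∧ ∃ a : ℤ, |q * x - a - γ| < ψ q}.Infinite}

/-- The set `‖q x - γ‖ < β`. -/
def Eq' (γ β : ℝ) (q : ℕ) : Set ℝ := {x | ∃ a : ℤ, |q * x - a - γ| < β}

/-- its indicator function -/
noncomputable def ind (γ β : ℝ) (q : ℕ) (x : ℝ) : ℝ := (Eq' γ β q).indicator 1 x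

end Vale.Agent.P028
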