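import Vale.Agent.P028.Basic
import Vale.Agent.P028.Count

/-! P028, row OVERLAP: correlation of the indicators of two levels. -/

namespace Vale.Agent.P028

open MeasureTheory

theorem overlap (γ β β' : ℝ) (h0 : 0 ≤ β) (h0' : 0 ≤ β') (h1 : β' ≤ 1 / 2) (q r : ℕ)
    (hq : 0 < q) (hr : 0 < r) :
    ∫ x in (0 : ℝ)..1, ind γ β q x * ind γ β' r x ≤ 2 * β' * (2 * β + Nat.gcd q r / r) := by
  have hr' : (0 : ℝ) < r := by exact_mod_cast hr
  set I : ℝ := ∫ x in (0 : ℝ)..1, ind γ β q x * ind γ β' r x with hI
  -- the product is periodic
  have hper : Function.Periodic (fun x => ind γ β q x * ind γ β' r x) 1 := fun x => by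
    show ind γ β q (x + 1) * ind γ β' r (x + 1) = _
    rw [ind_periodic_one γ β q x, ind_periodic_one γ β' r x]
  -- integrability of the translated products
  have hint : ∀ j : ℕ, IntervalIntegrable
      (fun x => ind γ β q (x + j / r) * ind γ β' r x) volume 0 1 := fun j => by
    refine bounded_intervalIntegrable (b := 1)
      (((measurable_ind γ β q).comp (measurable_id.add_const _)).mul (measurable_ind γ β' r))
      (fun x => ?_) 0 1
    show |ind γ β q (x + j / r) * ind γ β' r x| ≤ 1
    rw [abs_of_nonneg (mul_nonneg (ind_nonneg _ _ _ _) (ind_nonneg _ _ _ _))]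
    exact mul_le_one₀ (ind_le_one _ _ _ _) (ind_nonneg _ _ _ _) (ind_le_one _ _ _ _)
  -- every translate has the same integral
  have htr : ∀ j : ℕ, ∫ x in (0 : ℝ)..1, ind γ β q (x + j / r) * ind γ β' r x = I := fun j => by
    have e1 : (fun x : ℝ => ind γ β q (x + j / r) * ind γ β' r x) =
        fun x => (fun y => ind γ β q y * ind γ β' r y) (x + (j : ℝ) / r) := by
      funext x
      have := ind_add_div γ β' r hr x (j : ℤ)
      simp only [Int.cast_natCast] at this
      show _ = ind γ β q (x + j / r) * ind γ β' r (x + j / r)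
      rw [this]
    rw [e1, intervalIntegral.integral_comp_add_right
      (fun y => ind γ β q y * ind γ β' r y) ((j : ℝ) / r), zero_add, add_comm (1 : ℝ)]
    rw [hper.intervalIntegral_add_eq ((j : ℝ) / r) 0, zero_add]
  have hsum : (r : ℝ) * I ≤ (2 * β * r + Nat.gcd q r) * (2 * β') := by
    calc (r : ℝ) * I = ∑ j ∈ Finset.range r,
          ∫ x in (0 : ℝ)..1, ind γ β q (x + j / r) * ind γ β' r x := by
          rw [Finset.sum_congr rfl (fun j _ => htr j), Finset.sum_const, Finset.card_range,
            nsmul_eq_mul]
      _ = ∫ x in (0 : ℝ)..1, ∑ j ∈ Finset.range r, ind γ β q (x + j / r) * ind γ β' r x := by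
          rw [intervalIntegral.integral_finsetSum]
          intro j _
          exact hint j
      _ ≤ ∫ x in (0 : ℝ)..1, (2 * β * r + Nat.gcd q r) * ind γ β' r x := by
          apply intervalIntegral.integral_mono_on zero_le_one
          · have := IntervalIntegrable.sum (Finset.range r) fun j (_ : j ∈ Finset.range r) => hint j
            refine this.congr (fun x _ => ?_)
            simp only [Finset.sum_apply]
          · exact (ind_intervalIntegrable γ β' r 0 1).const_mul _
          · intro x _
            rw [← Finset.sum_mul]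
            exact mul_le_mul_of_nonneg_right (count γ β x h0 q r hq hr) (ind_nonneg _ _ _ _)
      _ = (2 * β * r + Nat.gcd q r) * (2 * β') := by
          rw [intervalIntegral.integral_const_mul, integral_ind γ β' h0' h1 r hr]
  have e : 2 * β' * (2 * β + Nat.gcd q r / r) = (2 * β * r + Nat.gcd q r) * (2 * β') / r := by
    field_simp
  rw [e, le_div_iff₀ hr']
  linarith

end Vale.Agent.P028
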